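import Vale.Agent.P030.H792.OdBase
import Vale.Agent.P030.H579.DesA
import Vale.Agent.P030.T.Final

/-!
# P030, odd primes: gluing of local bounds and the profile of design A

`Loc P c0 A φ`: the local bound with cost `s φ(p/s)` for the primes with `p/s ∈ A`.
-/

open MeasureTheory Set Filter Topology

namespace Vale.Agent.P030.H778

open Vale.Agent.P030.T

/-- the local bound with the cost `φ`, for the primes `p` with `p / s ∈ A` -/
def Loc (P : Par) (c0 : ℕ) (A : Set ℝ) (φ : ℝ → ℝ) : Prop :=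
  ∀ x : ℚ, ∀ δ : ℝ, 0 < δ → ∀ η : ℝ, 0 < η → ∃ s0 : ℕ, ∀ s : ℕ, s0 ≤ s →
    ∀ p : ℕ, p.Prime → p ≠ 2 → x.den < p → δ * s < p → ((p : ℝ) / s) ∈ A →
    ∀ σ, Adm P c0 s σ → (Mx (P.D0 * s) x σ).det ≠ 0 →
    -(s * (φ (p / s) + η)) ≤ (padicValRat p (Mx (P.D0 * s) x σ).det : ℝ)

variable {P : Par} {c0 : ℕ} {A B : Set ℝ} {φ ψ : ℝ → ℝ}

theorem Loc.mono (h : Loc P c0 B φ) (hAB : A ⊆ B) (hle : ∀ q ∈ A, φ q ≤ ψ q) :
    Loc P c0 A ψ := by
  intro x δ hδ η hη
  obtain ⟨s0, hs0⟩ := h x δ hδ η hη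
  refine ⟨s0, fun s hs p hpp hp2 hxp hδp hA σ hσ hdet => ?_⟩
  have h1 := hs0 s hs p hpp hp2 hxp hδp (hAB hA) σ hσ hdet
  have h2 := hle _ hA
  have h3 : (0 : ℝ) ≤ s := Nat.cast_nonneg s
  have h4 : (s : ℝ) * (φ (p / s) + η) ≤ s * (ψ (p / s) + η) :=
    mul_le_mul_of_nonneg_left (by linarith) h3
  linarith

theorem Loc.union (h1 : Loc P c0 A φ) (h2 : Loc P c0 B φ) : Loc P c0 (A ∪ B) φ := by
  intro x δ hδ η hη
  obtain ⟨s1, hs1⟩ := h1 x δ hδ η hη
  obtain ⟨s2, hs2⟩ := h2 x δ hδ η hη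
  refine ⟨max s1 s2, fun s hs p hpp hp2 hxp hδp hA σ hσ hdet => ?_⟩
  rcases hA with hA | hA
  · exact hs1 s ((le_max_left _ _).trans hs) p hpp hp2 hxp hδp hA σ hσ hdet
  · exact hs2 s ((le_max_right _ _).trans hs) p hpp hp2 hxp hδp hA σ hσ hdet

/-- the minimum of two bounds -/
theorem Loc.min (h1 : Loc P c0 A φ) (h2 : Loc P c0 A ψ) :
    Loc P c0 A (fun q => min (φ q) (ψ q)) := by
  intro x δ hδ η hη
  obtain ⟨s1, hs1⟩ := h1 x δ hδ η hη
  obtain ⟨s2, hs2⟩ := h2 x δ hδ η hη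
  refine ⟨max s1 s2, fun s hs p hpp hp2 hxp hδp hA σ hσ hdet => ?_⟩
  rcases le_total (φ (p / s)) (ψ (p / s)) with h | h
  · simp only [min_eq_left h]
    exact hs1 s ((le_max_left _ _).trans hs) p hpp hp2 hxp hδp hA σ hσ hdet
  · simp only [min_eq_right h]
    exact hs2 s ((le_max_right _ _).trans hs) p hpp hp2 hxp hδp hA σ hσ hdet

/-- the three lattices, for all ratios -/
theorem loc_lat (P : Par) (c0 : ℕ) {m : ℤ} (hm0 : 0 ≤ m) (hm2 : m ≤ 2) (A : Set ℝ) :
    Loc P c0 A (H792.cstm P H678.wg m) := by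
  intro x δ hδ η hη
  obtain ⟨s0, h⟩ := H792.loc_lat P c0 hm0 hm2 x δ hδ η hη
  exact ⟨s0, fun s hs p a1 a2 a3 a4 _ => h s hs p a1 a2 a3 a4⟩

/-- a local bound in the form `p < b s` -/
theorem Loc.of_lt {b : ℝ}
    (h : ∀ x : ℚ, ∀ δ : ℝ, 0 < δ → ∀ η : ℝ, 0 < η → ∃ s0 : ℕ, ∀ s : ℕ, s0 ≤ s →
      ∀ p : ℕ, p.Prime → p ≠ 2 → x.den < p → δ * s < p → (p : ℝ) < b * s →
      ∀ σ, Adm P c0 s σ → (Mx (P.D0 * s) x σ).det ≠ 0 →
      -(s * (φ (p / s) + η)) ≤ (padicValRat p (Mx (P.D0 * s) x σ).det : ℝ)) :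
    Loc P c0 (Iio b) φ := by
  intro x δ hδ η hη
  obtain ⟨s0, h0⟩ := h x δ hδ η hη
  refine ⟨max s0 1, fun s hs p a1 a2 a3 a4 a5 => ?_⟩
  have hs1 : (0 : ℝ) < s := by
    exact_mod_cast lt_of_lt_of_le Nat.one_pos ((le_max_right _ _).trans hs)
  exact h0 s ((le_max_left _ _).trans hs) p a1 a2 a3 a4 ((div_lt_iff₀ hs1).1 a5)

/-- **`StOD` from local bounds**: `φ` bounded and continuous off a finite set -/
theorem stOD_of_Loc (P : Par) (c0 : ℕ) {φ : ℝ → ℝ} {b M : ℝ} (hb : 0 < b)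
    (hHb : ∀ g, (P.ht g : ℝ) ≤ b) (E : Finset ℝ) (hφ : ContinuousOn φ (Ioo 0 b \ E))
    (hM : ∀ t ∈ Ioo 0 b, |φ t| ≤ M) (h : Loc P c0 (Ioo 0 b) φ) :
    StOD P c0 (∫ t in (0 : ℝ)..b, φ t) := by
  have hHb' : ((Finset.univ.sup P.ht : ℕ) : ℝ) ≤ b := by
    obtain ⟨g, _, hg⟩ := Finset.exists_mem_eq_sup Finset.univ ⟨Gp.z1, Finset.mem_univ _⟩ P.ht
    rw [hg]
    exact hHb g
  refine H404.stOD_of_local P c0 (Finset.univ.sup P.ht)
    (fun g => Finset.le_sup (Finset.mem_univ g)) hb hHb' hM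
    (fun δ hδ => ⟨E, hφ.mono (sdiff_subset_sdiff_left (Ioo_subset_Ioo_left hδ.le))⟩) ?_
  intro x δ hδ η hη
  obtain ⟨s0, h0⟩ := h x δ hδ η hη
  refine ⟨max s0 1, fun s hs p a1 a2 a3 a4 a5 => ?_⟩
  have hs1 : (0 : ℝ) < s := by
    exact_mod_cast lt_of_lt_of_le Nat.one_pos ((le_max_right _ _).trans hs)
  refine h0 s ((le_max_left _ _).trans hs) p a1 a2 a3 a4 ⟨?_, (div_lt_iff₀ hs1).2 a5⟩
  have : (0 : ℝ) < p := by exact_mod_cast a1.pos
  positivity

/-! ### integrals of piecewise linear functions -/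

/-- integrable on `[a, b]`, with integral `I` -/
def PI (f : ℝ → ℝ) (a b I : ℝ) : Prop :=
  IntervalIntegrable f volume a b ∧ ∫ t in a..b, f t = I

theorem PI.trans {f : ℝ → ℝ} {a b c I J K : ℝ} (h1 : PI f a b I) (h2 : PI f b c J)
    (hK : I + J = K) : PI f a c K :=
  ⟨h1.1.trans h2.1, by
    rw [← intervalIntegral.integral_add_adjacent_intervals h1.1 h2.1, h1.2, h2.2, hK]⟩

theorem PI.lin {f : ℝ → ℝ} {a b : ℝ} (c d : ℝ) {I : ℝ} (hab : a ≤ b)
    (h : ∀ t, a < t → t < b → f t = c * t + d)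
    (hI : c * (b ^ 2 - a ^ 2) / 2 + d * (b - a) = I) : PI f a b I := by
  have hc : Continuous fun t : ℝ => c * t + d := by fun_prop
  have hae : (fun t : ℝ => c * t + d) =ᵐ[volume.restrict (Ioc a b)] f := by
    rw [← Measure.restrict_congr_set (Ioo_ae_eq_Ioc (μ := volume) (a := a) (b := b))]
    filter_upwards [ae_restrict_mem measurableSet_Ioo] with t ht using (h t ht.1 ht.2).symm
  constructor
  · rw [intervalIntegrable_iff_integrableOn_Ioc_of_le hab]
    have h1 := (hc.intervalIntegrable (μ := volume) a b)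
    rw [intervalIntegrable_iff_integrableOn_Ioc_of_le hab] at h1
    exact Integrable.congr h1 hae
  · have h1 : ∀ t ∈ uIcc a b, HasDerivAt (fun t : ℝ => c * (t ^ 2 / 2) + d * t) (c * t + d) t := by
      intro t _
      have h2 : HasDerivAt (fun t : ℝ => c * (t ^ 2 / 2) + d * t)
          (c * ((2 : ℕ) * t ^ (2 - 1) * 1 / 2) + d * 1) t :=
        (((((hasDerivAt_id t).pow 2)).div_const 2).const_mul c).add ((hasDerivAt_id t).const_mul d)
      refine h2.congr_deriv ?_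
      norm_num
    rw [← hI, intervalIntegral.integral_of_le hab, ← integral_congr_ae hae,
      ← intervalIntegral.integral_of_le hab,
      intervalIntegral.integral_eq_sub_of_hasDerivAt h1 (hc.intervalIntegrable _ _)]
    ring

/-! ### design A -/

theorem parA_eq : H579.parA = DesA := by
  have h : H579.parA.ht = DesA.ht := by
    funext g; cases g <;> rfl
  have h0 : H579.parA.D0 = DesA.D0 := rfl
  cases hA : H579.parA
  cases hB : DesA
  rw [hA, hB] at h h0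
  simp only at h h0
  rw [h, h0]

theorem em0 : (H792.em 0 0 + H792.em 0 1 + H792.em 0 2 + H792.em 0 3 + H792.em 0 4 + H792.em 0 5
    + H792.em 0 6 : ℤ) = 10 := by decide

theorem em1 : (H792.em 1 0 + H792.em 1 1 + H792.em 1 2 + H792.em 1 3 + H792.em 1 4 + H792.em 1 5
    + H792.em 1 6 : ℤ) = 4 := by decide

theorem em2 : (H792.em 2 0 + H792.em 2 1 + H792.em 2 2 + H792.em 2 3 + H792.em 2 4 + H792.em 2 5
    + H792.em 2 6 : ℤ) = 0 := by decide

/-- lattice `0` for design A -/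
theorem cstm0_A {q : ℝ} (h : q ≤ 27) : H792.cstm DesA H678.wg 0 q = 65 + q := by
  unfold H792.cstm H792.idxm
  rw [H579.sum_Gp, em0]
  simp only [H678.wg, DesA]
  norm_num
  rw [max_eq_left (by linarith), min_eq_right h]
  ring

/-- lattice `1` for design A -/
theorem cstm1_A {q : ℝ} (h : q ≤ 27) : H792.cstm DesA H678.wg 1 q = 92 - q := by
  unfold H792.cstm H792.idxm
  rw [H579.sum_Gp, em1]
  simp only [H678.wg, DesA]
  norm_num
  rw [min_eq_right h, min_eq_right (by linarith)]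
  ring

/-- lattice `2` for design A -/
theorem cstm2_A {q : ℝ} (h4 : 4 ≤ q) (h : q ≤ 32) :
    H792.cstm DesA H678.wg 2 q = 192 - 6 * q := by
  unfold H792.cstm H792.idxm
  rw [H579.sum_Gp, em2]
  simp only [H678.wg, DesA]
  norm_num
  rw [min_eq_right h, min_eq_left h4]
  ring

/-- the profile of design A with the class gain -/
noncomputable def phiA (q : ℝ) : ℝ :=
  if q ≤ 27 / 2 then 65 + q else if q ≤ 15 then 143 - 5 * q else if q ≤ 16 then 83 - q
  else if q ≤ 86 / 5 then 5 * q - 13 else if q ≤ 25 then 159 - 5 * q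
  else if q ≤ 28 then 184 - 6 * q else if q ≤ 30 then 156 - 5 * q else 96 - 3 * q

/-- the profile of design A without the class gain -/
noncomputable def phiA0 (q : ℝ) : ℝ :=
  if q ≤ 27 / 2 then 65 + q else if q ≤ 67 / 4 then 92 - q else if q ≤ 25 then 159 - 5 * q
  else if q ≤ 28 then 184 - 6 * q else if q ≤ 30 then 156 - 5 * q else 96 - 3 * q

theorem phiA_1 {q : ℝ} (h : q ≤ 27 / 2) : phiA q = 65 + q := if_pos h
theorem phiA_2 {q : ℝ} (h1 : 27 / 2 < q) (h : q ≤ 15) : phiA q = 143 - 5 * q := by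
  rw [phiA, if_neg h1.not_ge, if_pos h]
theorem phiA_3 {q : ℝ} (h1 : 15 < q) (h : q ≤ 16) : phiA q = 83 - q := by
  rw [phiA, if_neg (by linarith), if_neg h1.not_ge, if_pos h]
theorem phiA_4 {q : ℝ} (h1 : 16 < q) (h : q ≤ 86 / 5) : phiA q = 5 * q - 13 := by
  rw [phiA, if_neg (by linarith), if_neg (by linarith), if_neg h1.not_ge, if_pos h]
theorem phiA_5 {q : ℝ} (h1 : 86 / 5 < q) (h : q ≤ 25) : phiA q = 159 - 5 * q := by
  rw [phiA, if_neg (by linarith), if_neg (by linarith), if_neg (by linarith), if_neg h1.not_ge,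
    if_pos h]
theorem phiA_6 {q : ℝ} (h1 : 25 < q) (h : q ≤ 28) : phiA q = 184 - 6 * q := by
  rw [phiA, if_neg (by linarith), if_neg (by linarith), if_neg (by linarith),
    if_neg (by linarith), if_neg h1.not_ge, if_pos h]
theorem phiA_7 {q : ℝ} (h1 : 28 < q) (h : q ≤ 30) : phiA q = 156 - 5 * q := by
  rw [phiA, if_neg (by linarith), if_neg (by linarith), if_neg (by linarith),
    if_neg (by linarith), if_neg (by linarith), if_neg h1.not_ge, if_pos h]
theorem phiA_8 {q : ℝ} (h1 : 30 < q) : phiA q = 96 - 3 * q := by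
  rw [phiA, if_neg (by linarith), if_neg (by linarith), if_neg (by linarith),
    if_neg (by linarith), if_neg (by linarith), if_neg (by linarith), if_neg h1.not_ge]

theorem phiA0_1 {q : ℝ} (h : q ≤ 27 / 2) : phiA0 q = 65 + q := if_pos h
theorem phiA0_2 {q : ℝ} (h1 : 27 / 2 < q) (h : q ≤ 67 / 4) : phiA0 q = 92 - q := by
  rw [phiA0, if_neg h1.not_ge, if_pos h]
theorem phiA0_3 {q : ℝ} (h1 : 67 / 4 < q) (h : q ≤ 25) : phiA0 q = 159 - 5 * q := by
  rw [phiA0, if_neg (by linarith), if_neg h1.not_ge, if_pos h]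
theorem phiA0_4 {q : ℝ} (h1 : 25 < q) (h : q ≤ 28) : phiA0 q = 184 - 6 * q := by
  rw [phiA0, if_neg (by linarith), if_neg (by linarith), if_neg h1.not_ge, if_pos h]
theorem phiA0_5 {q : ℝ} (h1 : 28 < q) (h : q ≤ 30) : phiA0 q = 156 - 5 * q := by
  rw [phiA0, if_neg (by linarith), if_neg (by linarith), if_neg (by linarith),
    if_neg h1.not_ge, if_pos h]
theorem phiA0_6 {q : ℝ} (h1 : 30 < q) : phiA0 q = 96 - 3 * q := by
  rw [phiA0, if_neg (by linarith), if_neg (by linarith), if_neg (by linarith),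
    if_neg (by linarith), if_neg h1.not_ge]

theorem PI_phiA : PI phiA 0 32 (34961 / 20) := by
  have p1 : PI phiA 0 (27 / 2) (7749 / 8) := PI.lin 1 65 (by norm_num)
    (fun t _ h => by rw [phiA_1 h.le]; ring) (by norm_num)
  have p2 : PI phiA (27 / 2) 15 (861 / 8) := PI.lin (-5) 143 (by norm_num)
    (fun t h1 h => by rw [phiA_2 h1 h.le]; ring) (by norm_num)
  have p3 : PI phiA 15 16 (135 / 2) := PI.lin (-1) 83 (by norm_num)
    (fun t h1 h => by rw [phiA_3 h1 h.le]; ring) (by norm_num)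
  have p4 : PI phiA 16 (86 / 5) 84 := PI.lin 5 (-13) (by norm_num)
    (fun t h1 h => by rw [phiA_4 h1 h.le]; ring) (by norm_num)
  have p5 : PI phiA (86 / 5) 25 (4173 / 10) := PI.lin (-5) 159 (by norm_num)
    (fun t h1 h => by rw [phiA_5 h1 h.le]; ring) (by norm_num)
  have p6 : PI phiA 25 28 75 := PI.lin (-6) 184 (by norm_num)
    (fun t h1 h => by rw [phiA_6 h1 h.le]; ring) (by norm_num)
  have p7 : PI phiA 28 30 22 := PI.lin (-5) 156 (by norm_num)
    (fun t h1 h => by rw [phiA_7 h1 h.le]; ring) (by norm_num)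
  have p8 : PI phiA 30 32 6 := PI.lin (-3) 96 (by norm_num)
    (fun t h1 h => by rw [phiA_8 h1]; ring) (by norm_num)
  exact ((((((p1.trans p2 rfl).trans p3 rfl).trans p4 rfl).trans p5 rfl).trans p6 rfl).trans
    p7 rfl).trans p8 (by norm_num)

theorem PI_phiA0 : PI phiA0 0 32 (14177 / 8) := by
  have p1 : PI phiA0 0 (27 / 2) (7749 / 8) := PI.lin 1 65 (by norm_num)
    (fun t _ h => by rw [phiA0_1 h.le]; ring) (by norm_num)
  have p2 : PI phiA0 (27 / 2) (67 / 4) (7995 / 32) := PI.lin (-1) 92 (by norm_num)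
    (fun t h1 h => by rw [phiA0_2 h1 h.le]; ring) (by norm_num)
  have p3 : PI phiA0 (67 / 4) 25 (14421 / 32) := PI.lin (-5) 159 (by norm_num)
    (fun t h1 h => by rw [phiA0_3 h1 h.le]; ring) (by norm_num)
  have p4 : PI phiA0 25 28 75 := PI.lin (-6) 184 (by norm_num)
    (fun t h1 h => by rw [phiA0_4 h1 h.le]; ring) (by norm_num)
  have p5 : PI phiA0 28 30 22 := PI.lin (-5) 156 (by norm_num)
    (fun t h1 h => by rw [phiA0_5 h1 h.le]; ring) (by norm_num)
  have p6 : PI phiA0 30 32 6 := PI.lin (-3) 96 (by norm_num)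
    (fun t h1 h => by rw [phiA0_6 h1]; ring) (by norm_num)
  exact ((((p1.trans p2 rfl).trans p3 rfl).trans p4 rfl).trans p5 rfl).trans p6 (by norm_num)

/-! ### the odd part of design A -/

theorem contAt_piece {f : ℝ → ℝ} {a b t : ℝ} (c d : ℝ) (ha : a < t) (hb : t < b)
    (h : ∀ u, a < u → u < b → f u = c * u + d) : ContinuousAt f t := by
  have h1 : (fun u => c * u + d) =ᶠ[𝓝 t] f := by
    filter_upwards [Ioo_mem_nhds ha hb] with u hu using (h u hu.1 hu.2).symm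
  exact (by fun_prop : Continuous fun u : ℝ => c * u + d).continuousAt.congr h1

theorem contOn_phiA : ContinuousOn phiA
    (Ioo 0 32 \ (({27 / 2, 15, 16, 86 / 5, 25, 28, 30} : Finset ℝ) : Set ℝ)) := by
  rintro t ⟨⟨h0, h1⟩, hE⟩
  simp only [Finset.coe_insert, Finset.coe_singleton, mem_insert_iff, mem_singleton_iff,
    not_or] at hE
  obtain ⟨e1, e2, e3, e4, e5, e6, e7⟩ := hE
  refine ContinuousAt.continuousWithinAt ?_
  rcases lt_or_gt_of_ne e1 with h | h
  · exact contAt_piece 1 65 h0 h fun u _ hu => by rw [phiA_1 hu.le]; ring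
  rcases lt_or_gt_of_ne e2 with g | h
  · exact contAt_piece (-5) 143 h g fun u hl hu => by rw [phiA_2 hl hu.le]; ring
  rcases lt_or_gt_of_ne e3 with g | h
  · exact contAt_piece (-1) 83 h g fun u hl hu => by rw [phiA_3 hl hu.le]; ring
  rcases lt_or_gt_of_ne e4 with g | h
  · exact contAt_piece 5 (-13) h g fun u hl hu => by rw [phiA_4 hl hu.le]; ring
  rcases lt_or_gt_of_ne e5 with g | h
  · exact contAt_piece (-5) 159 h g fun u hl hu => by rw [phiA_5 hl hu.le]; ring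
  rcases lt_or_gt_of_ne e6 with g | h
  · exact contAt_piece (-6) 184 h g fun u hl hu => by rw [phiA_6 hl hu.le]; ring
  rcases lt_or_gt_of_ne e7 with g | h
  · exact contAt_piece (-5) 156 h g fun u hl hu => by rw [phiA_7 hl hu.le]; ring
  · exact contAt_piece (-3) 96 h h1 fun u hl hu => by rw [phiA_8 hl]; ring

theorem contOn_phiA0 : ContinuousOn phiA0
    (Ioo 0 32 \ (({27 / 2, 67 / 4, 25, 28, 30} : Finset ℝ) : Set ℝ)) := by
  rintro t ⟨⟨h0, h1⟩, hE⟩
  simp only [Finset.coe_insert, Finset.coe_singleton, mem_insert_iff, mem_singleton_iff,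
    not_or] at hE
  obtain ⟨e1, e2, e3, e4, e5⟩ := hE
  refine ContinuousAt.continuousWithinAt ?_
  rcases lt_or_gt_of_ne e1 with h | h
  · exact contAt_piece 1 65 h0 h fun u _ hu => by rw [phiA0_1 hu.le]; ring
  rcases lt_or_gt_of_ne e2 with g | h
  · exact contAt_piece (-1) 92 h g fun u hl hu => by rw [phiA0_2 hl hu.le]; ring
  rcases lt_or_gt_of_ne e3 with g | h
  · exact contAt_piece (-5) 159 h g fun u hl hu => by rw [phiA0_3 hl hu.le]; ring
  rcases lt_or_gt_of_ne e4 with g | h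
  · exact contAt_piece (-6) 184 h g fun u hl hu => by rw [phiA0_4 hl hu.le]; ring
  rcases lt_or_gt_of_ne e5 with g | h
  · exact contAt_piece (-5) 156 h g fun u hl hu => by rw [phiA0_5 hl hu.le]; ring
  · exact contAt_piece (-3) 96 h h1 fun u hl hu => by rw [phiA0_6 hl]; ring

theorem abs_phiA_le {t : ℝ} (ht : t ∈ Ioo (0 : ℝ) 32) : |phiA t| ≤ 100 := by
  obtain ⟨h0, h1⟩ := ht
  unfold phiA
  rw [abs_le]
  split_ifs <;> constructor <;> linarith

theorem abs_phiA0_le {t : ℝ} (ht : t ∈ Ioo (0 : ℝ) 32) : |phiA0 t| ≤ 100 := by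
  obtain ⟨h0, h1⟩ := ht
  unfold phiA0
  rw [abs_le]
  split_ifs <;> constructor <;> linarith

theorem DesA_ht_le (g : Gp) : ((DesA.ht g : ℕ) : ℝ) ≤ 32 := by
  have h : DesA.ht g ≤ 32 := by cases g <;> decide
  exact_mod_cast h

/-- the top range: flags and the last column groups -/
theorem top_line (q : ℝ) :
    6 * (32 - q) - min (32 - q) 4 - 2 * min (32 - q) 2
      = if q ≤ 28 then 184 - 6 * q else if q ≤ 30 then 156 - 5 * q else 96 - 3 * q := by
  split_ifs with h3 h4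
  · rw [min_eq_right (by linarith), min_eq_right (by linarith)]; ring
  · rw [min_eq_left (by linarith), min_eq_right (by linarith)]; ring
  · rw [min_eq_left (by linarith), min_eq_left (by linarith)]; ring

/-- **the odd part of design A, `34961 / 20 = 1748.05`**, from the local bounds: the class gain
on `(27/2, 86/5]`, the line `159 - 5 q` up to `25` and the top range -/
theorem stOD_A (c0 : ℕ)
    (h1 : Loc DesA c0 (Ioc (27 / 2) 15) fun q => 143 - 5 * q)
    (h2 : Loc DesA c0 (Ioc 15 16) fun q => 83 - q)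
    (h3 : Loc DesA c0 (Ioc 16 (86 / 5)) fun q => 5 * q - 13)
    (h4 : Loc DesA c0 (Ioc (86 / 5) 25) fun q => 159 - 5 * q)
    (h5 : Loc DesA c0 (Ioo 25 32) fun q => 6 * (32 - q) - min (32 - q) 4 - 2 * min (32 - q) 2) :
    StOD DesA c0 (34961 / 20) := by
  rw [← PI_phiA.2]
  refine stOD_of_Loc DesA c0 (by norm_num) DesA_ht_le _ contOn_phiA
    (fun t ht => abs_phiA_le ht) ?_
  have g0 : Loc DesA c0 (Ioc 0 (27 / 2)) phiA :=
    (loc_lat DesA c0 (m := 0) (by norm_num) (by norm_num) _).mono subset_rfl fun q hq => by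
      rw [phiA_1 hq.2, cstm0_A (by linarith [hq.2])]
  have g1 : Loc DesA c0 (Ioc (27 / 2) 15) phiA := h1.mono subset_rfl fun q hq => by
    rw [phiA_2 hq.1 hq.2]
  have g2 : Loc DesA c0 (Ioc 15 16) phiA := h2.mono subset_rfl fun q hq => by
    rw [phiA_3 hq.1 hq.2]
  have g3 : Loc DesA c0 (Ioc 16 (86 / 5)) phiA := h3.mono subset_rfl fun q hq => by
    rw [phiA_4 hq.1 hq.2]
  have g4 : Loc DesA c0 (Ioc (86 / 5) 25) phiA := h4.mono subset_rfl fun q hq => by
    rw [phiA_5 hq.1 hq.2]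
  have g5 : Loc DesA c0 (Ioo 25 32) phiA := h5.mono subset_rfl fun q hq => by
    rw [top_line]
    rcases le_or_gt q 28 with h | h
    · rw [phiA_6 hq.1 h, if_pos h]
    rcases le_or_gt q 30 with h' | h'
    · rw [phiA_7 h h', if_neg h.not_ge, if_pos h']
    · rw [phiA_8 h', if_neg h.not_ge, if_neg h'.not_ge]
  refine (((((g0.union g1).union g2).union g3).union g4).union g5).mono ?_ fun q _ => le_rfl
  rintro q ⟨q0, q1⟩
  by_cases a1 : q ≤ 27 / 2
  · exact Or.inl (Or.inl (Or.inl (Or.inl (Or.inl ⟨q0, a1⟩))))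
  by_cases a2 : q ≤ 15
  · exact Or.inl (Or.inl (Or.inl (Or.inl (Or.inr ⟨not_le.1 a1, a2⟩))))
  by_cases a3 : q ≤ 16
  · exact Or.inl (Or.inl (Or.inl (Or.inr ⟨not_le.1 a2, a3⟩)))
  by_cases a4 : q ≤ 86 / 5
  · exact Or.inl (Or.inl (Or.inr ⟨not_le.1 a3, a4⟩))
  by_cases a5 : q ≤ 25
  · exact Or.inl (Or.inr ⟨not_le.1 a4, a5⟩)
  · exact Or.inr ⟨not_le.1 a5, q1⟩

/-- **the odd part of design A without the class gain, `14177 / 8 = 1772.125`** -/
theorem stOD_A0 (c0 : ℕ)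
    (h4 : Loc DesA c0 (Ioc (67 / 4) 25) fun q => 159 - 5 * q)
    (h5 : Loc DesA c0 (Ioo 25 32) fun q => 6 * (32 - q) - min (32 - q) 4 - 2 * min (32 - q) 2) :
    StOD DesA c0 (14177 / 8) := by
  rw [← PI_phiA0.2]
  refine stOD_of_Loc DesA c0 (by norm_num) DesA_ht_le _ contOn_phiA0
    (fun t ht => abs_phiA0_le ht) ?_
  have g0 : Loc DesA c0 (Ioc 0 (27 / 2)) phiA0 :=
    (loc_lat DesA c0 (m := 0) (by norm_num) (by norm_num) _).mono subset_rfl fun q hq => by
      rw [phiA0_1 hq.2, cstm0_A (by linarith [hq.2])]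
  have g1 : Loc DesA c0 (Ioc (27 / 2) (67 / 4)) phiA0 :=
    (loc_lat DesA c0 (m := 1) (by norm_num) (by norm_num) _).mono subset_rfl fun q hq => by
      rw [phiA0_2 hq.1 hq.2, cstm1_A (by linarith [hq.2])]
  have g4 : Loc DesA c0 (Ioc (67 / 4) 25) phiA0 := h4.mono subset_rfl fun q hq => by
    rw [phiA0_3 hq.1 hq.2]
  have g5 : Loc DesA c0 (Ioo 25 32) phiA0 := h5.mono subset_rfl fun q hq => by
    rw [top_line]
    rcases le_or_gt q 28 with h | h
    · rw [phiA0_4 hq.1 h, if_pos h]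
    rcases le_or_gt q 30 with h' | h'
    · rw [phiA0_5 h h', if_neg h.not_ge, if_pos h']
    · rw [phiA0_6 h', if_neg h.not_ge, if_neg h'.not_ge]
  refine (((g0.union g1).union g4).union g5).mono ?_ fun q _ => le_rfl
  rintro q ⟨q0, q1⟩
  by_cases a1 : q ≤ 27 / 2
  · exact Or.inl (Or.inl (Or.inl ⟨q0, a1⟩))
  by_cases a2 : q ≤ 67 / 4
  · exact Or.inl (Or.inl (Or.inr ⟨not_le.1 a1, a2⟩))
  by_cases a5 : q ≤ 25
  · exact Or.inl (Or.inr ⟨not_le.1 a2, a5⟩)
  · exact Or.inr ⟨not_le.1 a5, q1⟩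

end Vale.Agent.P030.H778
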