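import Vale.Agent.P030.H404.LineA7
import Vale.Agent.P030.H792.LocMid
import Vale.Agent.P030.H778.Prof

/-!
# P030, odd primes, design A: line (I) plugged in

* `hI_A`: the range `[86/5, 32)` of helper792's plug;
* `stOD_A1`: the unconditional odd part `14177 / 8`;
* `stOD_A2`: the odd part `34961 / 20` from the class gain alone.
-/

open MeasureTheory Set Filter Topology

namespace Vale.Agent.P030.H778

open Vale.Agent.P030.T

/-- line (I) for design A -/
theorem lineA_eq {t : ℝ} (h1 : 12 ≤ t) (h2 : t ≤ 32) :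
    H404.phiA DesA t = 6 * (32 - t) - min 4 (32 - t) - min 2 (32 - t)
      - max (27 - t) (min 2 (32 - t)) := by
  unfold H404.phiA H404.mu0 H404.mu1
  rw [H579.sum_Gp]
  simp only [H678.wg, DesA]
  have e32 : max ((32 : ℝ) - t) 0 = 32 - t := max_eq_left (by linarith)
  have e4 : max ((4 : ℝ) - t) 0 = 0 := max_eq_right (by linarith)
  have e2 : max ((2 : ℝ) - t) 0 = 0 := max_eq_right (by linarith)
  have e12 : max ((12 : ℝ) - t) 0 = 0 := max_eq_right (by linarith)
  have e10 : max ((10 : ℝ) - t) 0 = 0 := max_eq_right (by linarith)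
  push_cast
  rw [e32, e4, e2, e12, e10, min_self, min_self (32 - t)]
  have e5 : min (min (2 : ℝ) 2) (min 32 2) = 2 := by norm_num
  rw [e5]
  ring

theorem lineA_1 {t : ℝ} (h1 : 12 ≤ t) (h2 : t ≤ 25) : H404.phiA DesA t = 159 - 5 * t := by
  rw [lineA_eq h1 (by linarith), min_eq_left (by linarith), min_eq_left (by linarith),
    max_eq_left (by linarith)]
  ring

theorem lineA_2 {t : ℝ} (h1 : 25 ≤ t) (h2 : t ≤ 32) :
    H404.phiA DesA t = 6 * (32 - t) - min (32 - t) 4 - 2 * min (32 - t) 2 := by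
  rw [lineA_eq (by linarith) h2, min_comm 4, min_comm 2]
  have h3 : max (27 - t) (min (32 - t) 2) = min (32 - t) 2 :=
    max_eq_right (le_min (by linarith) (by linarith))
  rw [h3]
  ring

/-- line (I) in the form `Loc` -/
theorem loc_lineA (c0 : ℕ) : Loc DesA c0 (Ioo (33 / 2) 32) (H404.phiA DesA) := by
  intro x δ hδ η hη
  obtain ⟨s0, h0⟩ := H404.loc_A DesA c0 (T0 := 33 / 2)
    (fun g => by
      have := DesA_ht_le g
      linarith)
    (by simp only [DesA]; norm_num) (by simp only [DesA]; norm_num) x η hη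
  refine ⟨max s0 1, fun s hs p a1 a2 a3 a4 a5 => ?_⟩
  have hs1 : (0 : ℝ) < s := by
    exact_mod_cast lt_of_lt_of_le Nat.one_pos ((le_max_right _ _).trans hs)
  exact h0 s ((le_max_left _ _).trans hs) p a1 a3 ((lt_div_iff₀ hs1).1 a5.1)

/-- **the odd part of design A, unconditional, without the class gain** -/
theorem stOD_A1 (c0 : ℕ) : StOD DesA c0 (14177 / 8) := by
  refine stOD_A0 c0 ?_ ?_
  · exact (loc_lineA c0).mono (fun q hq => ⟨by linarith [hq.1], by linarith [hq.2]⟩) fun q hq => by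
      rw [lineA_1 (by linarith [hq.1]) hq.2]
  · exact (loc_lineA c0).mono (fun q hq => ⟨by linarith [hq.1], hq.2⟩) fun q hq => by
      rw [lineA_2 hq.1.le hq.2.le]

/-- **the odd part of design A from the class gain on `(27/2, 86/5]`** -/
theorem stOD_A2 (c0 : ℕ)
    (h1 : Loc DesA c0 (Ioc (27 / 2) 15) fun q => 143 - 5 * q)
    (h2 : Loc DesA c0 (Ioc 15 16) fun q => 83 - q)
    (h3 : Loc DesA c0 (Ioc 16 (86 / 5)) fun q => 5 * q - 13) :
    StOD DesA c0 (34961 / 20) := by
  refine stOD_A c0 h1 h2 h3 ?_ ?_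
  · exact (loc_lineA c0).mono (fun q hq => ⟨by linarith [hq.1], by linarith [hq.2]⟩) fun q hq => by
      rw [lineA_1 (by linarith [hq.1]) hq.2]
  · exact (loc_lineA c0).mono (fun q hq => ⟨by linarith [hq.1], hq.2⟩) fun q hq => by
      rw [lineA_2 hq.1.le hq.2.le]

/-- the range `[86/5, 32)` of the plug `H792.stOD_A_of` -/
theorem hI_A (c0 : ℕ) : H792.LocRange H579.parA c0 (86 / 5) 32 H792.phiA := by
  rw [parA_eq]
  intro x η hη
  obtain ⟨s0, h0⟩ := loc_lineA c0 x 1 one_pos η hη
  refine ⟨max s0 1, fun s hs p a1 a2 a3 a4 a5 σ hσ hdet => ?_⟩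
  have hs1 : (0 : ℝ) < s := by
    exact_mod_cast lt_of_lt_of_le Nat.one_pos ((le_max_right _ _).trans hs)
  have h5 := h0 s ((le_max_left _ _).trans hs) p a1 a2 a3
    (by rw [one_mul]; have := (le_div_iff₀ hs1).1 a4; linarith) ⟨by linarith, a5⟩ σ hσ hdet
  set q : ℝ := (p : ℝ) / s with hq
  have h6 : H404.phiA DesA q = H792.phiA q := by
    unfold H792.phiA
    rw [if_neg (by linarith), if_neg (by linarith), if_neg (by linarith), if_neg (by linarith)]
    rcases lt_or_ge q 25 with g1 | g1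
    · rw [if_pos g1, lineA_1 (by linarith) g1.le]
    rw [if_neg g1.not_gt, lineA_2 g1 a5.le]
    rcases lt_or_ge q 28 with g2 | g2
    · rw [if_pos g2, min_eq_right (by linarith), min_eq_right (by linarith)]; ring
    rw [if_neg g2.not_gt]
    rcases lt_or_ge q 30 with g3 | g3
    · rw [if_pos g3, min_eq_left (by linarith), min_eq_right (by linarith)]; ring
    · rw [if_neg g3.not_gt, min_eq_left (by linarith), min_eq_left (by linarith)]; ring
  rw [← h6]
  exact h5

/-- **the odd part of design A from helper792's bound at one prime in the middle range** -/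
theorem stOD_A_mid (c0 : ℕ) {C : ℤ} (h : H792.MidBound c0 C) :
    StOD H579.parA c0 (34961 / 20) :=
  H792.stOD_A_of c0 (H792.locRange_mid h) (hI_A c0)

/-- the unconditional odd part, for `parA` -/
theorem stOD_parA (c0 : ℕ) : StOD H579.parA c0 (14177 / 8) := by
  rw [parA_eq]
  exact stOD_A1 c0

end Vale.Agent.P030.H778
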