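import Vale.Agent.P030.H778.OdA
import Vale.Agent.P030.H611.KapL
import Vale.Agent.P030.H392.MidA

/-!
# P030, odd primes: `StOD` from a list of linear pieces; the class gain on `[13, 86/5)`

A piece is `(b, c, d)`: the cost `c q + d` up to `q < b`.
-/

open MeasureTheory Set Filter Topology

namespace Vale.Agent.P030.H778

open Vale.Agent.P030.T

/-- piecewise linear function -/
noncomputable def pw : List (ℝ × ℝ × ℝ) → ℝ → ℝ
  | [], _ => 0
  | e :: L, q => if q < e.1 then e.2.1 * q + e.2.2 else pw L q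

/-- its integral from `a` -/
noncomputable def pwI : ℝ → List (ℝ × ℝ × ℝ) → ℝ
  | _, [] => 0
  | a, e :: L => (e.2.1 * (e.1 ^ 2 - a ^ 2) / 2 + e.2.2 * (e.1 - a)) + pwI e.1 L

/-- the last node -/
noncomputable def pwE : ℝ → List (ℝ × ℝ × ℝ) → ℝ
  | a, [] => a
  | _, e :: L => pwE e.1 L

/-- a bound -/
noncomputable def pwM (b : ℝ) : List (ℝ × ℝ × ℝ) → ℝ
  | [] => 0
  | e :: L => (|e.2.1| * b + |e.2.2|) + pwM b L

/-- increasing nodes -/
def pwS : ℝ → List (ℝ × ℝ × ℝ) → Prop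
  | _, [] => True
  | a, e :: L => a < e.1 ∧ pwS e.1 L

/-- the local bounds on all pieces -/
def LocP (P : Par) (c0 : ℕ) : ℝ → List (ℝ × ℝ × ℝ) → Prop
  | _, [] => True
  | a, e :: L => H792.LocRange P c0 a e.1 (fun q => e.2.1 * q + e.2.2) ∧ LocP P c0 e.1 L

theorem pwE_ge {L : List (ℝ × ℝ × ℝ)} : ∀ {a : ℝ}, pwS a L → a ≤ pwE a L := by
  induction L with
  | nil => intro a _; exact le_rfl
  | cons e L ih => intro a h; exact h.1.le.trans (ih h.2)

theorem PI.congr {f g : ℝ → ℝ} {a b I : ℝ} (h : PI f a b I) (hab : a ≤ b)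
    (hfg : ∀ t, a < t → t < b → f t = g t) : PI g a b I := by
  have hae : f =ᵐ[volume.restrict (Ioc a b)] g := by
    rw [← Measure.restrict_congr_set (Ioo_ae_eq_Ioc (μ := volume) (a := a) (b := b))]
    filter_upwards [ae_restrict_mem measurableSet_Ioo] with t ht using hfg t ht.1 ht.2
  constructor
  · have h1 := h.1
    rw [intervalIntegrable_iff_integrableOn_Ioc_of_le hab] at h1 ⊢
    exact Integrable.congr h1 hae
  · rw [← h.2, intervalIntegral.integral_of_le hab, ← integral_congr_ae hae,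
      ← intervalIntegral.integral_of_le hab]

theorem PI_pw {L : List (ℝ × ℝ × ℝ)} : ∀ {a : ℝ}, pwS a L → PI (pw L) a (pwE a L) (pwI a L) := by
  induction L with
  | nil =>
    intro a _
    exact ⟨by simp [pwE], by simp [pwE, pwI]⟩
  | cons e L ih =>
    intro a h
    refine PI.trans (PI.lin (b := e.1) e.2.1 e.2.2 h.1.le (fun t _ ht => ?_) rfl)
      (PI.congr (ih h.2) (pwE_ge h.2) fun t ht _ => ?_) rfl
    · simp only [pw, if_pos ht]
    · simp only [pw, if_neg ht.not_gt]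

theorem contAt_pw {L : List (ℝ × ℝ × ℝ)} {t : ℝ} (h : ∀ e ∈ L, t ≠ e.1) :
    ContinuousAt (pw L) t := by
  induction L with
  | nil => exact continuousAt_const
  | cons e L ih =>
    rcases lt_or_gt_of_ne (h e List.mem_cons_self) with h1 | h1
    · have h2 : (fun u => e.2.1 * u + e.2.2) =ᶠ[𝓝 t] pw (e :: L) := by
        filter_upwards [Iio_mem_nhds h1] with u hu
        simp only [pw, if_pos (mem_Iio.1 hu)]
      exact (by fun_prop : Continuous fun u : ℝ => e.2.1 * u + e.2.2).continuousAt.congr h2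
    · have h2 : pw L =ᶠ[𝓝 t] pw (e :: L) := by
        filter_upwards [Ioi_mem_nhds h1] with u hu
        simp only [pw, if_neg (not_lt.2 (le_of_lt (mem_Ioi.1 hu)))]
      exact (ih fun e' he' => h e' (List.mem_cons_of_mem _ he')).congr h2

theorem pwM_nonneg {b : ℝ} (hb : 0 ≤ b) (L : List (ℝ × ℝ × ℝ)) : 0 ≤ pwM b L := by
  induction L with
  | nil => exact le_rfl
  | cons e L ih => unfold pwM; positivity

theorem abs_pw_le {b t : ℝ} (h0 : 0 ≤ t) (h1 : t ≤ b) (L : List (ℝ × ℝ × ℝ)) :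
    |pw L t| ≤ pwM b L := by
  have hb : 0 ≤ b := h0.trans h1
  induction L with
  | nil => simp [pw, pwM]
  | cons e L ih =>
    unfold pw pwM
    have h2 : 0 ≤ |e.2.1| * b + |e.2.2| := by positivity
    split_ifs
    · have h3 : |e.2.1 * t + e.2.2| ≤ |e.2.1| * b + |e.2.2| := by
        refine (abs_add_le _ _).trans ?_
        rw [abs_mul, abs_of_nonneg h0]
        gcongr
      linarith [pwM_nonneg hb L]
    · linarith

theorem locRange_pw {P : Par} {c0 : ℕ} {L : List (ℝ × ℝ × ℝ)} : ∀ {a : ℝ}, pwS a L →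
    LocP P c0 a L → H792.LocRange P c0 a (pwE a L) (pw L) := by
  induction L with
  | nil =>
    intro a _ _ x η _
    refine ⟨0, fun s _ p _ _ _ h1 h2 => ?_⟩
    exact absurd (h1.trans_lt h2) (lt_irrefl _)
  | cons e L ih =>
    intro a hs h
    refine (h.1.mono fun q _ hq => ?_).union ((ih hs.2 h.2).mono fun q hq _ => ?_)
    · simp only [pw, if_pos hq]; exact le_rfl
    · simp only [pw, if_neg (not_lt.2 hq)]; exact le_rfl

/-- **`StOD` from a list of linear pieces** -/
theorem stOD_pw (P : Par) (c0 : ℕ) {b0 c d : ℝ} {L : List (ℝ × ℝ × ℝ)} (hb0 : 0 < b0)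
    (h0 : Loc P c0 (Ioo 0 b0) fun q => c * q + d) (hS : pwS b0 L) (hL : LocP P c0 b0 L)
    (hH : ∀ g, (P.ht g : ℝ) ≤ pwE b0 L) {I : ℝ} (hI : pwI 0 ((b0, c, d) :: L) = I) :
    StOD P c0 I := by
  have hb := lt_of_lt_of_le hb0 (pwE_ge hS)
  have hP : PI (pw ((b0, c, d) :: L)) 0 (pwE b0 L) I := by
    rw [← hI]
    exact PI_pw (L := (b0, c, d) :: L) (a := 0) ⟨hb0, hS⟩
  rw [← hP.2]
  refine stOD_of_Loc P c0 hb hH (((b0, c, d) :: L).map Prod.fst).toFinset ?_
    (fun t ht => abs_pw_le ht.1.le ht.2.le _) ?_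
  · rintro t ⟨_, ht⟩
    refine (contAt_pw fun e he h => ht ?_).continuousWithinAt
    rw [Finset.mem_coe, List.mem_toFinset, List.mem_map]
    exact ⟨e, he, h.symm⟩
  · have h1 := locRange_pw hS hL
    have h2 : Loc P c0 (Ico b0 (pwE b0 L)) (pw ((b0, c, d) :: L)) := by
      intro x δ _ η hη
      obtain ⟨s0, hs0⟩ := h1 x η hη
      refine ⟨s0, fun s hs p a1 a2 a3 _ a5 σ hσ hdet => ?_⟩
      have h3 := hs0 s hs p a1 a2 a3 a5.1 a5.2 σ hσ hdet
      simp only [pw]
      rw [if_neg (not_lt.2 a5.1)]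
      exact h3
    have h3 : Loc P c0 (Ioo 0 b0) (pw ((b0, c, d) :: L)) :=
      h0.mono subset_rfl fun q hq => by simp only [pw, if_pos hq.2]; exact le_rfl
    refine (h3.union h2).mono (fun q hq => ?_) fun q _ => le_rfl
    rcases lt_or_ge q b0 with h | h
    · exact Or.inl ⟨hq.1, h⟩
    · exact Or.inr ⟨h, hq.2⟩

/-! ### the local ranges of design A -/

theorem LocRange.cut {P : Par} {c0 : ℕ} {a b a' b' : ℝ} {φ ψ : ℝ → ℝ}
    (h : H792.LocRange P c0 a b φ) (ha : a ≤ a') (hb : b' ≤ b)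
    (hle : ∀ q, a' ≤ q → q < b' → φ q ≤ ψ q) : H792.LocRange P c0 a' b' ψ := by
  intro x η hη
  obtain ⟨s0, hs0⟩ := h x η hη
  refine ⟨s0, fun s hs p a1 a2 a3 a4 a5 σ hσ hdet => le_trans ?_
    (hs0 s hs p a1 a2 a3 (ha.trans a4) (a5.trans_le hb) σ hσ hdet)⟩
  have h2 := hle _ a4 a5
  have h3 : (0 : ℝ) ≤ s := Nat.cast_nonneg _
  nlinarith

/-- the lattices, as a range -/
theorem LocRange_of_Loc {P : Par} {c0 : ℕ} {a b : ℝ} {φ : ℝ → ℝ} (ha : 0 < a)
    (h : Loc P c0 (Ico a b) φ) : H792.LocRange P c0 a b φ := by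
  intro x η hη
  obtain ⟨s0, hs0⟩ := h x (a / 2) (half_pos ha) η hη
  refine ⟨max s0 1, fun s hs p a1 a2 a3 a4 a5 => ?_⟩
  have hs1 : (0 : ℝ) < s := by
    exact_mod_cast lt_of_lt_of_le Nat.one_pos ((le_max_right _ _).trans hs)
  refine hs0 s ((le_max_left _ _).trans hs) p a1 a2 a3 ?_ ⟨a4, a5⟩
  have h1 := (le_div_iff₀ hs1).1 a4
  nlinarith

/-- lattice `0` of design A -/
theorem lr0 (c0 : ℕ) {a b : ℝ} (ha : 0 < a) (hb : b ≤ 27) :
    H792.LocRange H579.parA c0 a b (fun q => 1 * q + 65) := by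
  rw [parA_eq]
  refine LocRange_of_Loc ha ((loc_lat DesA c0 (m := 0) (by norm_num) (by norm_num) _).mono
    subset_rfl fun q hq => ?_)
  rw [cstm0_A (hq.2.le.trans hb)]
  linarith

/-- lattice `1` of design A -/
theorem lr1 (c0 : ℕ) {a b : ℝ} (ha : 0 < a) (hb : b ≤ 27) :
    H792.LocRange H579.parA c0 a b (fun q => -1 * q + 92) := by
  rw [parA_eq]
  refine LocRange_of_Loc ha ((loc_lat DesA c0 (m := 1) (by norm_num) (by norm_num) _).mono
    subset_rfl fun q hq => ?_)
  rw [cstm1_A (hq.2.le.trans hb)]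
  linarith

/-- line (I) of design A, all pieces from `b0 ≤ 25` -/
theorem lrI (c0 : ℕ) {b0 : ℝ} (h1 : 33 / 2 < b0) :
    LocP H579.parA c0 b0 [(25, -5, 159), (28, -6, 184), (30, -5, 156), (32, -3, 96)] := by
  rw [parA_eq]
  have key : ∀ (a b : ℝ), 33 / 2 < a → b ≤ 32 → ∀ ψ : ℝ → ℝ,
      (∀ q, a ≤ q → q < b → H404.phiA DesA q ≤ ψ q) → H792.LocRange DesA c0 a b ψ := by
    intro a b ha hb ψ hψ
    refine LocRange_of_Loc (by linarith) ((loc_lineA c0).mono (fun q hq => ⟨?_, ?_⟩) fun q hq =>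
      hψ q hq.1 hq.2)
    · exact ha.trans_le hq.1
    · exact hq.2.trans_le hb
  refine ⟨key b0 25 h1 (by norm_num) _ fun q h2 h3 => ?_,
    key 25 28 (by norm_num) (by norm_num) _ fun q h2 h3 => ?_,
    key 28 30 (by norm_num) (by norm_num) _ fun q h2 h3 => ?_,
    key 30 32 (by norm_num) (by norm_num) _ fun q h2 h3 => ?_, trivial⟩
  · rw [lineA_1 (by linarith) h3.le]; linarith
  · rw [lineA_2 h2 (by linarith), min_eq_right (by linarith), min_eq_right (by linarith)]
    linarith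
  · rw [lineA_2 (by linarith) (by linarith), min_eq_left (by linarith),
      min_eq_right (by linarith)]
    linarith
  · rw [lineA_2 (by linarith) h3.le, min_eq_left (by linarith), min_eq_left (by linarith)]
    linarith

/-- **the class gain on `[13, 86/5)`** from helper392's count -/
theorem lrMid {c0 : ℕ} (hin : H392.MidIn c0) :
    LocP H579.parA c0 13 [(15, -5, 143), (16, -1, 83), (86 / 5, 5, -13)] := by
  have key : ∀ (a b c d : ℝ) (yf : ℕ → ℕ → ℕ), 13 ≤ a → b ≤ 86 / 5 →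
      (∀ s p : ℕ, 13 * s ≤ p → 5 * p < 86 * s → a * s ≤ p → (p : ℝ) < b * s →
        27 * s ≤ 2 * p + yf s p ∧ yf s p + p ≤ 27 * s ∧ yf s p ≤ p ∧
        -((c * p + d * s : ℝ)) ≤ (H792.gainA s p (yf s p) : ℝ) - (65 * s + p)) →
      H792.LocRange H579.parA c0 a b (fun q => c * q + d) := by
    intro a b c d yf ha hb hy x η hη
    obtain ⟨s1, hs1⟩ := exists_nat_gt ((25 * c0 + 1) / η : ℝ)
    refine ⟨max s1 (c0 + 2), fun s hs p hpp hp2 hxp hap hbp σ hσ hdet => ?_⟩
    have := Fact.mk hpp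
    have hsc : c0 + 2 ≤ s := (le_max_right _ _).trans hs
    have hs0 : (0 : ℝ) < s := by
      have : 1 ≤ s := by omega
      exact_mod_cast this
    have hss1 : (s1 : ℝ) ≤ s := by exact_mod_cast (le_max_left _ _).trans hs
    have hC : (25 * c0 + 1 : ℝ) ≤ η * s := by
      have h1 := (div_lt_iff₀ hη).1 hs1
      have h2 := mul_le_mul_of_nonneg_right hss1 hη.le
      linarith
    rw [le_div_iff₀ hs0] at hap
    rw [div_lt_iff₀ hs0] at hbp
    have n1 : 13 * s ≤ p := by
      have : (13 : ℝ) * s ≤ p := by nlinarith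
      exact_mod_cast this
    have n2 : 5 * p < 86 * s := by
      have : (5 : ℝ) * p < 86 * s := by nlinarith
      exact_mod_cast this
    have hp5 : 5 ≤ p := by omega
    have hsq : 32 * s + c0 + 2 ≤ p ^ 2 := by nlinarith
    have hxn := H792.norm_x_le_one hxp
    obtain ⟨y1, y2, y3, y4⟩ := hy s p n1 n2 hap hbp
    have g := H392.count_A hin p hp5 s (yf s p) x σ hσ hdet hxn (by omega) y1 (by omega) y2 hsq
      (by omega) y3
    have h7 := H792.sum_wg_A hσ
    have h8 := H792.latIdx_B (p := p) (D := H579.parA.D0 * s) (by omega) (by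
      have : H579.parA.D0 = 27 := rfl
      rw [this]; omega)
    rw [h8] at g
    have hD : ((H579.parA.D0 * s : ℕ) : ℤ) = 27 * s := by
      have : H579.parA.D0 = 27 := rfl
      rw [this]; push_cast; ring
    rw [hD] at g
    have g2 : (H792.gainA s p (yf s p) - (65 * s + p) - (25 * c0 + 1) : ℤ)
        ≤ padicValRat p (Mx (H579.parA.D0 * s) x σ).det := by linarith
    have g3 : ((H792.gainA s p (yf s p) : ℝ) - (65 * s + p) - (25 * c0 + 1))
        ≤ (padicValRat p (Mx (H579.parA.D0 * s) x σ).det : ℝ) := by exact_mod_cast g2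
    have hps : (s : ℝ) * ((p : ℝ) / s) = p := by field_simp
    have e : (s : ℝ) * (c * ((p : ℝ) / s) + d + η) = c * (s * ((p : ℝ) / s)) + d * s + η * s := by
      ring
    rw [e, hps]
    linarith
  refine ⟨key 13 15 (-5) 143 (fun s _ => 2 * s) le_rfl (by norm_num) ?_,
    key 15 16 (-1) 83 (fun s p => 32 * s - 2 * p) (by norm_num) (by norm_num) ?_,
    key 16 (86 / 5) 5 (-13) (fun _ _ => 0) (by norm_num) le_rfl ?_, trivial⟩
  · intro s p n1 n2 hap hbp
    have m1 : p < 15 * s := by exact_mod_cast hbp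
    refine ⟨by omega, by omega, by omega, ?_⟩
    have e : H792.gainA s p (2 * s) = 6 * p - 78 * s := by
      unfold H792.gainA
      omega
    rw [e]
    push_cast
    linarith
  · intro s p n1 n2 hap hbp
    have m0 : 15 * s ≤ p := by exact_mod_cast hap
    have m1 : p < 16 * s := by exact_mod_cast hbp
    refine ⟨by omega, by omega, by omega, ?_⟩
    have e : H792.gainA s p (32 * s - 2 * p) = 2 * p - 18 * s := by
      unfold H792.gainA
      omega
    rw [e]
    push_cast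
    linarith
  · intro s p n1 n2 hap hbp
    have m0 : 16 * s ≤ p := by exact_mod_cast hap
    refine ⟨by omega, by omega, by omega, ?_⟩
    have e : H792.gainA s p 0 = 78 * s - 4 * p := by
      unfold H792.gainA
      omega
    rw [e]
    push_cast
    linarith

/-- the pieces of helper641's dip, up to `11` -/
theorem lrDip {c0 : ℕ} (h : H792.LocRange H579.parA c0 9 (47 / 4) H641.phiDip) :
    LocP H579.parA c0 9 [(10, -2, 92), (32 / 3, -1, 82), (11, 5, 18)] := by
  refine ⟨LocRange.cut h le_rfl (by norm_num) fun q h1 h2 => ?_,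
    LocRange.cut h (by norm_num) (by norm_num) fun q h1 h2 => ?_,
    LocRange.cut h (by norm_num) (by norm_num) fun q h1 h2 => ?_, trivial⟩
  · unfold H641.phiDip
    rw [if_pos h2]; linarith
  · unfold H641.phiDip
    rw [if_neg (by linarith), if_pos h2]; linarith
  · unfold H641.phiDip
    rw [if_neg (by linarith), if_neg (by linarith)]; linarith

theorem lrDip4 {c0 : ℕ} (h : H792.LocRange H579.parA c0 9 (47 / 4) H641.phiDip) :
    H792.LocRange H579.parA c0 11 (47 / 4) (fun q => 5 * q + 18) := by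
  refine LocRange.cut h (by norm_num) (by norm_num) fun q h1 h2 => ?_
  unfold H641.phiDip
  rw [if_neg (by linarith), if_neg (by linarith)]; linarith

theorem loc0 (c0 : ℕ) {b : ℝ} (hb : b ≤ 27) :
    Loc H579.parA c0 (Ioo 0 b) (fun q => 1 * q + 65) := by
  rw [parA_eq]
  refine (loc_lat DesA c0 (m := 0) (by norm_num) (by norm_num) _).mono subset_rfl fun q hq => ?_
  rw [cstm0_A (hq.2.le.trans hb)]
  linarith

theorem ht_le32 (g : Gp) : ((H579.parA.ht g : ℕ) : ℝ) ≤ 32 := by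
  rw [parA_eq]
  exact DesA_ht_le g

/-- **class gain only**: `17473 / 10 = 1747.3` -/
theorem stOD_mid (c0 : ℕ) (hM : H392.MidIn c0) : StOD H579.parA c0 (17473 / 10) := by
  obtain ⟨m1, m2, m3, -⟩ := lrMid hM
  refine stOD_pw H579.parA c0 (b0 := 13) (c := 1) (d := 65) (L := [(15, -5, 143), (16, -1, 83),
    (86 / 5, 5, -13), (25, -5, 159), (28, -6, 184), (30, -5, 156), (32, -3, 96)]) (by norm_num)
    (loc0 c0 (by norm_num)) (by norm_num [pwS]) ⟨m1, m2, m3, lrI c0 (by norm_num)⟩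
    (fun g => ht_le32 g) (by norm_num [pwI])

/-- **dip only**: `10595 / 6 = 1765.83` -/
theorem stOD_dip (c0 : ℕ) (h : H792.LocRange H579.parA c0 9 (47 / 4) H641.phiDip) :
    StOD H579.parA c0 (10595 / 6) := by
  obtain ⟨m1, m2, m3, -⟩ := lrDip h
  refine stOD_pw H579.parA c0 (b0 := 9) (c := 1) (d := 65) (L := [(10, -2, 92), (32 / 3, -1, 82),
    (11, 5, 18), (47 / 4, 5, 18), (27 / 2, 1, 65), (67 / 4, -1, 92), (25, -5, 159),
    (28, -6, 184), (30, -5, 156), (32, -3, 96)]) (by norm_num)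
    (loc0 c0 (by norm_num)) (by norm_num [pwS])
    ⟨m1, m2, m3, lrDip4 h, lr0 c0 (by norm_num) (by norm_num), lr1 c0 (by norm_num) (by norm_num),
      lrI c0 (by norm_num)⟩
    (fun g => ht_le32 g) (by norm_num [pwI])

/-- **dip and class gain**: `208921 / 120 = 1741.008` -/
theorem stOD_dip_mid (c0 : ℕ) (h : H792.LocRange H579.parA c0 9 (47 / 4) H641.phiDip)
    (hM : H392.MidIn c0) : StOD H579.parA c0 (208921 / 120) := by
  obtain ⟨m1, m2, m3, -⟩ := lrDip h
  obtain ⟨n1, n2, n3, -⟩ := lrMid hM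
  refine stOD_pw H579.parA c0 (b0 := 9) (c := 1) (d := 65) (L := [(10, -2, 92), (32 / 3, -1, 82),
    (11, 5, 18), (47 / 4, 5, 18), (13, 1, 65), (15, -5, 143), (16, -1, 83),
    (86 / 5, 5, -13), (25, -5, 159), (28, -6, 184), (30, -5, 156), (32, -3, 96)]) (by norm_num)
    (loc0 c0 (by norm_num)) (by norm_num [pwS])
    ⟨m1, m2, m3, lrDip4 h, lr0 c0 (by norm_num) (by norm_num), n1, n2, n3, lrI c0 (by norm_num)⟩
    (fun g => ht_le32 g) (by norm_num [pwI])

/-- **dip, kernel family and class gain**: `104393 / 60 = 1739.883` -/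
theorem stOD_all (c0 : ℕ) (h : H792.LocRange H579.parA c0 9 (47 / 4) H641.phiDip)
    (hK : H792.LocRange H579.parA c0 (32 / 3) (25 / 2) (fun q => 40 + 3 * q))
    (hM : H392.MidIn c0) : StOD H579.parA c0 (104393 / 60) := by
  obtain ⟨m1, m2, m3, -⟩ := lrDip h
  obtain ⟨n1, n2, n3, -⟩ := lrMid hM
  refine stOD_pw H579.parA c0 (b0 := 9) (c := 1) (d := 65) (L := [(10, -2, 92), (32 / 3, -1, 82),
    (11, 5, 18), (25 / 2, 3, 40), (13, 1, 65), (15, -5, 143), (16, -1, 83),
    (86 / 5, 5, -13), (25, -5, 159), (28, -6, 184), (30, -5, 156), (32, -3, 96)]) (by norm_num)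
    (loc0 c0 (by norm_num)) (by norm_num [pwS])
    ⟨m1, m2, m3, LocRange.cut hK (by norm_num) le_rfl fun q _ _ => by linarith,
      lr0 c0 (by norm_num) (by norm_num), n1, n2, n3, lrI c0 (by norm_num)⟩
    (fun g => ht_le32 g) (by norm_num [pwI])

/-- the odd part of design A from the three local inputs -/
theorem stOD_final (c0 : ℕ) (hR : H641.RedAll c0) (hK : H611.KapAll c0) (hM : H392.MidIn c0) :
    StOD H579.parA c0 (104393 / 60) :=
  stOD_all c0 (H641.locRange_dip hR) (H611.locRange_kap hK) hM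

end Vale.Agent.P030.H778
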